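import Mathlib

/-!
# The core of a finite set: largest subset all of whose elements are declared relevant by it
-/

set_option autoImplicit false
set_option linter.unusedSectionVars false

namespace Vale.Agent.P331.H365

open Finset

section

variable {E : Type*} [DecidableEq E]

/-- the largest subset `Q` of `X` with `Q ⊆ sig Q` -/
def core (sig : Finset E → Finset E) (X : Finset E) : Finset E :=
  (X.powerset.filter fun Q => Q ⊆ sig Q).sup id

variable {sig : Finset E → Finset E}

theorem core_sub (sig : Finset E → Finset E) (X : Finset E) : core sig X ⊆ X := by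
  refine Finset.sup_le fun Q hQ => ?_
  exact mem_powerset.1 (mem_filter.1 hQ).1

theorem le_core {X Q : Finset E} (h : Q ⊆ X) (hQ : Q ⊆ sig Q) : Q ⊆ core sig X :=
  Finset.le_sup (f := id) (mem_filter.2 ⟨mem_powerset.2 h, hQ⟩)

theorem core_le_sig (hm : ∀ {X Y : Finset E}, X ⊆ Y → sig X ⊆ sig Y) (X : Finset E) :
    core sig X ⊆ sig (core sig X) := by
  refine Finset.sup_le fun Q hQ => ?_
  have h := mem_filter.1 hQ
  exact h.2.trans (hm (le_core (mem_powerset.1 h.1) h.2))

theorem sig_core (hm : ∀ {X Y : Finset E}, X ⊆ Y → sig X ⊆ sig Y) (hs : ∀ X, sig X ⊆ X)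
    (X : Finset E) : sig (core sig X) = core sig X :=
  Finset.Subset.antisymm (hs _) (core_le_sig hm X)

theorem core_mono (hm : ∀ {X Y : Finset E}, X ⊆ Y → sig X ⊆ sig Y) {X Y : Finset E}
    (h : X ⊆ Y) : core sig X ⊆ core sig Y :=
  le_core ((core_sub sig X).trans h) (core_le_sig hm X)

theorem core_eq_self_iff (hm : ∀ {X Y : Finset E}, X ⊆ Y → sig X ⊆ sig Y) {X : Finset E} :
    core sig X = X ↔ X ⊆ sig X := by
  constructor
  · intro h
    have := core_le_sig hm X
    rwa [h] at this
  · intro h
    exact Finset.Subset.antisymm (core_sub sig X) (le_core (Finset.Subset.refl X) h)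

theorem core_core (hm : ∀ {X Y : Finset E}, X ⊆ Y → sig X ⊆ sig Y) (X : Finset E) :
    core sig (core sig X) = core sig X :=
  (core_eq_self_iff hm).2 (core_le_sig hm X)

/-- an element which is not declared is not in the core -/
theorem not_mem_core (hm : ∀ {X Y : Finset E}, X ⊆ Y → sig X ⊆ sig Y) {X : Finset E} {b : E}
    (hb : b ∉ sig X) : b ∉ core sig X :=
  fun h => hb (hm (core_sub sig X) (core_le_sig hm X h))

theorem core_erase (hm : ∀ {X Y : Finset E}, X ⊆ Y → sig X ⊆ sig Y) {X : Finset E} {b : E}
    (hb : b ∉ sig X) : core sig (X.erase b) = core sig X := by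
  refine Finset.Subset.antisymm (core_mono hm (erase_subset b X)) ?_
  refine le_core (fun e he => mem_erase.2 ⟨fun h => ?_, core_sub sig X he⟩) (core_le_sig hm X)
  exact not_mem_core hm hb (h ▸ he)

/-- **the removal order**: `st b` is what is left of `X` just before `b` is removed; then the
telescoping sum of the increments of any function `ψ` -/
theorem peel (hm : ∀ {X Y : Finset E}, X ⊆ Y → sig X ⊆ sig Y) (X : Finset E) :
    ∃ st : E → Finset E,
      (∀ b ∈ X \ core sig X, b ∈ st b ∧ st b ⊆ X ∧ core sig X ⊆ st b ∧ b ∉ sig (st b)) ∧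
      ∀ (ψ : Finset E → ℝ) (δ : ℝ) (U : Finset E), U ⊆ X →
        (∀ b ∈ U \ core sig X, ψ ((U ∩ st b).erase b) - ψ (U ∩ st b) ≤ δ) →
        ψ (U ∩ core sig X) ≤ ψ U + ((U \ core sig X).card : ℝ) * δ := by
  induction hn : X.card generalizing X with
  | zero =>
    have hX : X = ∅ := card_eq_zero.1 hn
    subst hX
    refine ⟨fun _ => ∅, fun b hb => by simp at hb, fun ψ δ U hU _ => ?_⟩
    have hU' : U = ∅ := subset_empty.1 hU
    subst hU'
    simp
  | succ n ih =>
    by_cases h : X ⊆ sig X
    · have hc : core sig X = X := (core_eq_self_iff hm).2 h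
      refine ⟨fun _ => ∅, fun b hb => by simp [hc] at hb, fun ψ δ U hU _ => ?_⟩
      rw [hc, inter_eq_left.2 hU, sdiff_eq_empty_iff_subset.2 hU]
      simp
    · obtain ⟨b, hbX, hb⟩ := Finset.not_subset.1 h
      have hcore := core_erase hm hb
      obtain ⟨st, h1, h2⟩ := ih (X.erase b) (by rw [card_erase_of_mem hbX, hn]; rfl)
      rw [hcore] at h1 h2
      have hbc : b ∉ core sig X := not_mem_core hm hb
      refine ⟨fun e => if e = b then X else st e, ?_, ?_⟩
      · intro e he
        have he' := mem_sdiff.1 he
        by_cases heb : e = b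
        · subst heb
          simp only [if_true]
          exact ⟨he'.1, Finset.Subset.refl _, core_sub sig X, hb⟩
        · simp only [heb, if_false]
          obtain ⟨a1, a2, a3, a4⟩ := h1 e (mem_sdiff.2 ⟨mem_erase.2 ⟨heb, he'.1⟩, he'.2⟩)
          exact ⟨a1, a2.trans (erase_subset b X), a3, a4⟩
      · intro ψ δ U hU hd
        by_cases hbU : b ∈ U
        · -- remove `b` first
          have e1 : (U.erase b) ⊆ X.erase b := erase_subset_erase b hU
          have e2 : (U.erase b) ∩ core sig X = U ∩ core sig X := by
            ext e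
            simp only [mem_inter, mem_erase]
            constructor
            · rintro ⟨⟨_, h3⟩, h4⟩
              exact ⟨h3, h4⟩
            · rintro ⟨h3, h4⟩
              exact ⟨⟨fun h5 => hbc (h5 ▸ h4), h3⟩, h4⟩
          have e3 : ((U.erase b) \ core sig X) = (U \ core sig X).erase b := by
            ext e
            simp only [mem_sdiff, mem_erase]
            tauto
          have hbm : b ∈ U \ core sig X := mem_sdiff.2 ⟨hbU, hbc⟩
          have key := h2 ψ δ (U.erase b) e1 ?_
          · rw [e2, e3, card_erase_of_mem hbm] at key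
            have d1 := hd b hbm
            simp only [if_true] at d1
            rw [inter_eq_left.2 hU] at d1
            have hpos : 1 ≤ (U \ core sig X).card := card_pos.2 ⟨b, hbm⟩
            rw [Nat.cast_sub hpos] at key
            push_cast at key
            linarith
          · intro e he
            rw [e3] at he
            have he' := mem_erase.1 he
            have heb : e ≠ b := he'.1
            have d1 := hd e he'.2
            simp only [heb, if_false] at d1
            have hst : st e ⊆ X.erase b :=
              (h1 e (mem_sdiff.2 ⟨mem_erase.2 ⟨heb, hU (mem_sdiff.1 he'.2).1⟩,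
                (mem_sdiff.1 he'.2).2⟩)).2.1
            have e4 : (U.erase b) ∩ st e = U ∩ st e := by
              ext a
              simp only [mem_inter, mem_erase]
              constructor
              · rintro ⟨⟨_, h3⟩, h4⟩
                exact ⟨h3, h4⟩
              · rintro ⟨h3, h4⟩
                exact ⟨⟨(mem_erase.1 (hst h4)).1, h3⟩, h4⟩
            rw [e4]
            exact d1
        · have e1 : U ⊆ X.erase b := fun e he => mem_erase.2 ⟨fun h5 => hbU (h5 ▸ he), hU he⟩
          refine h2 ψ δ U e1 fun e he => ?_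
          have heb : e ≠ b := fun h5 => hbU (h5 ▸ (mem_sdiff.1 he).1)
          have d1 := hd e he
          simp only [heb, if_false] at d1
          exact d1

/-- **telescoping, dichotomy form**: for `U ⊆ X` with at most `κ` elements, either passing to the
core costs at most `κ δ`, or some removed `b` has an increment `> δ` at a context of at most `κ`
elements inside the set `st b` left just before its removal (`b ∉ sig (st b)`) -/
theorem peel_or {X : Finset E} {st : E → Finset E}
    (h2 : ∀ (ψ : Finset E → ℝ) (δ : ℝ) (U : Finset E), U ⊆ X →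
        (∀ b ∈ U \ core sig X, ψ ((U ∩ st b).erase b) - ψ (U ∩ st b) ≤ δ) →
        ψ (U ∩ core sig X) ≤ ψ U + ((U \ core sig X).card : ℝ) * δ)
    (h1 : ∀ b ∈ X \ core sig X, b ∈ st b)
    (ψ : Finset E → ℝ) {δ κ : ℝ} (hδ : 0 ≤ δ) {U : Finset E} (hU : U ⊆ X)
    (hκ : (U.card : ℝ) ≤ κ) :
    ψ (U ∩ core sig X) ≤ ψ U + κ * δ ∨
      ∃ b ∈ X \ core sig X, ∃ Y ⊆ (st b).erase b, (Y.card : ℝ) ≤ κ ∧ b ∉ Y ∧
        δ < ψ Y - ψ (insert b Y) := by
  by_cases h : ∀ b ∈ U \ core sig X, ψ ((U ∩ st b).erase b) - ψ (U ∩ st b) ≤ δ
  · left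
    refine (h2 ψ δ U hU h).trans ?_
    have : ((U \ core sig X).card : ℝ) ≤ κ :=
      le_trans (by exact_mod_cast card_le_card sdiff_subset) hκ
    nlinarith
  · right
    push Not at h
    obtain ⟨b, hb, hlt⟩ := h
    have hb' := mem_sdiff.1 hb
    have hbX : b ∈ X \ core sig X := mem_sdiff.2 ⟨hU hb'.1, hb'.2⟩
    have hbs := h1 b hbX
    refine ⟨b, hbX, (U ∩ st b).erase b, erase_subset_erase b inter_subset_right, ?_,
      notMem_erase b _, ?_⟩
    · refine le_trans ?_ hκ
      exact_mod_cast (card_le_card (erase_subset b _)).trans (card_le_card inter_subset_left)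
    · rw [insert_erase (mem_inter.2 ⟨hb'.1, hbs⟩)]
      exact hlt

end

end Vale.Agent.P331.H365
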